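import Vale.Agent.Lib.P147.Main

namespace Vale.Agent.Results.P147.Balanced

open MeasureTheory Filter Vale.Agent.Lib.P147

/-- Random walk in an iid random environment on `ℤ^d` with row law `μ`. If the local drift in
direction `ℓ` vanishes `μ`-almost surely, then for almost every environment the quenched law
gives probability `0` both to escape in direction `ℓ` and to escape in direction `-ℓ`. -/
theorem result {d : ℕ} (ℓ : Fin d → ℝ) (μ : Measure (Fin d × Units ℤ → ℝ)) [IsProbabilityMeasure μ]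
    (hμ : ∀ᵐ p ∂μ, p ∈ stdSimplex ℝ (Fin d × Units ℤ))
    (hdrift : ∀ᵐ p ∂μ, ∑ e, p e * ∑ i, ℓ i * (step e i : ℝ) = 0) :
    ∀ᵐ ω ∂(Measure.infinitePi fun _ : Fin d → ℤ => μ),
      ∀ Q : Measure (ℕ → Fin d → ℤ), IsQuenchedLaw ω Q →
        Q {X | Tendsto (fun n => ∑ i, ℓ i * (X n i : ℝ)) atTop atTop} = 0 ∧
        Q {X | Tendsto (fun n => ∑ i, ℓ i * (X n i : ℝ)) atTop atBot} = 0 := by
  have h1 := iid_atBot_null ℓ μ hμ (hdrift.mono fun p hp => hp.ge)
  have h2 := iid_atTop_null ℓ μ hμ (hdrift.mono fun p hp => hp.le)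
  filter_upwards [h1, h2] with ω hω1 hω2 Q hQ
  exact ⟨hω2 Q hQ, hω1 Q hQ⟩

end Vale.Agent.Results.P147.Balanced
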