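import Vale.Agent.Lib.P147.Main

namespace Vale.Agent.Results.P147.DriftSign

open MeasureTheory Filter Vale.Agent.Lib.P147

/-- Random walk in an iid random environment on `ℤ^d` with row law `μ`. If the local drift in
direction `ℓ` is `μ`-almost surely nonnegative, then for almost every environment the quenched
law gives probability `0` to the event that the walk tends to `-∞` in direction `ℓ`; if it is
almost surely nonpositive, the same holds for the event that the walk tends to `+∞`. -/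
theorem result {d : ℕ} (ℓ : Fin d → ℝ) (μ : Measure (Fin d × Units ℤ → ℝ)) [IsProbabilityMeasure μ]
    (hμ : ∀ᵐ p ∂μ, p ∈ stdSimplex ℝ (Fin d × Units ℤ)) :
    ((∀ᵐ p ∂μ, 0 ≤ ∑ e, p e * ∑ i, ℓ i * (step e i : ℝ)) →
      ∀ᵐ ω ∂(Measure.infinitePi fun _ : Fin d → ℤ => μ),
        ∀ Q : Measure (ℕ → Fin d → ℤ), IsQuenchedLaw ω Q →
          Q {X | Tendsto (fun n => ∑ i, ℓ i * (X n i : ℝ)) atTop atBot} = 0) ∧
    ((∀ᵐ p ∂μ, ∑ e, p e * ∑ i, ℓ i * (step e i : ℝ) ≤ 0) →
      ∀ᵐ ω ∂(Measure.infinitePi fun _ : Fin d → ℤ => μ),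
        ∀ Q : Measure (ℕ → Fin d → ℤ), IsQuenchedLaw ω Q →
          Q {X | Tendsto (fun n => ∑ i, ℓ i * (X n i : ℝ)) atTop atTop} = 0) :=
  ⟨fun h => iid_atBot_null ℓ μ hμ h, fun h => iid_atTop_null ℓ μ hμ h⟩

end Vale.Agent.Results.P147.DriftSign
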