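import Vale.Agent.Lib.P147.Main

namespace Vale.Agent.Results.P147.Quenched

open MeasureTheory Filter Vale.Agent.Lib.P147

/-- Nearest-neighbour walk on `ℤ^d` in a fixed environment `ω`. If the local drift in direction
`ℓ` is nonnegative at every site, then the quenched law started at `0` gives probability `0` to
the event that the walk tends to `-∞` in direction `ℓ`. -/
theorem result {d : ℕ} (ℓ : Fin d → ℝ) (ω : (Fin d → ℤ) → Fin d × Units ℤ → ℝ)
    (hω : ∀ x, ω x ∈ stdSimplex ℝ (Fin d × Units ℤ))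
    (hdrift : ∀ x, 0 ≤ ∑ e, ω x e * ∑ i, ℓ i * (step e i : ℝ))
    (Q : Measure (ℕ → Fin d → ℤ)) (hQ : IsQuenchedLaw ω Q) :
    Q {X | Tendsto (fun n => ∑ i, ℓ i * (X n i : ℝ)) atTop atBot} = 0 :=
  quenched_atBot_null ℓ ω hω hdrift Q hQ

end Vale.Agent.Results.P147.Quenched
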